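import Vale.Agent.P075.Final

/-!
# P075, question 2 : the dyadic triangular Hilbert transform is bounded
-/

namespace Vale.Agent.Results.P075.DyadicBound

open MeasureTheory

/-- the dyadic interval `[2 ^ k n, 2 ^ k (n + 1))` of the index `n` -/
def interval (k : ℤ) (n : ℕ) : Set ℝ := Set.Ico ((2 : ℝ) ^ k * n) ((2 : ℝ) ^ k * (n + 1))

/-- the function `h_I` of `I = interval k n` : the indicator function of the left half minus the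
indicator function of the right half -/
noncomputable def haar (k : ℤ) (n : ℕ) (x : ℝ) : ℝ :=
  (Set.Ico ((2 : ℝ) ^ k * n) ((2 : ℝ) ^ k * (n + 1 / 2))).indicator (fun _ => (1 : ℝ)) x -
    (Set.Ico ((2 : ℝ) ^ k * (n + 1 / 2)) ((2 : ℝ) ^ k * (n + 1))).indicator (fun _ => (1 : ℝ)) x

/-- the index triples of the triples of dyadic intervals in `𝒜_k` -/
abbrev Triple : Type := {n : ℕ × ℕ × ℕ // n.1 ^^^ n.2.1 ^^^ n.2.2 = 0}

/-- the form `L_𝐈` of the triple `𝐈` of dyadic intervals of length `2 ^ k` with the indices `n` -/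
noncomputable def form (k : ℤ) (n : ℕ × ℕ × ℕ) (F₀ F₁ F₂ : ℝ × ℝ → ℝ) : ℝ :=
  (2 : ℝ) ^ (-k) * ∫ x in interval k n.1 ×ˢ interval k n.2.1 ×ˢ interval k n.2.2,
    F₀ (x.1, x.2.1) * F₁ (x.2.1, x.2.2) * F₂ (x.2.2, x.1) *
      (haar k n.1 x.1 * haar k n.2.1 x.2.1 * haar k n.2.2 x.2.2)

/-- the norm in `L³([0, ∞)²)` -/
noncomputable def norm3 (F : ℝ × ℝ → ℝ) : ℝ :=
  (∫ x in Set.Ici (0 : ℝ) ×ˢ Set.Ici (0 : ℝ), |F x| ^ 3) ^ ((1 : ℝ) / 3)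

/-- **Question 2 has the answer yes**, with the constant `144`. The sums over `𝒜_k` converge
absolutely, and the bound even holds for the sum of the absolute values of all the terms. -/
theorem result : ∀ F₀ F₁ F₂ : ℝ × ℝ → ℝ, Measurable F₀ → Measurable F₁ → Measurable F₂ →
    (∃ K : ℝ, ∀ x, |F₀ x| ≤ K) → (∃ K : ℝ, ∀ x, |F₁ x| ≤ K) → (∃ K : ℝ, ∀ x, |F₂ x| ≤ K) →
    HasCompactSupport F₀ → HasCompactSupport F₁ → HasCompactSupport F₂ →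
    (∀ k : ℤ, Summable fun n : Triple => |form k n.1 F₀ F₁ F₂|) ∧
    (∀ S : Finset ℤ, ∑ k ∈ S, ∑' n : Triple, |form k n.1 F₀ F₁ F₂| ≤
      144 * (norm3 F₀ * norm3 F₁ * norm3 F₂)) ∧
    (∀ (S : Finset ℤ) (ε : ℤ → ℝ), (∀ k ∈ S, |ε k| ≤ 1) →
      |∑ k ∈ S, ε k * ∑' n : Triple, form k n.1 F₀ F₁ F₂| ≤
        144 * (norm3 F₀ * norm3 F₁ * norm3 F₂)) := by
  intro F₀ F₁ F₂ h₀ h₁ h₂ b₀ b₁ b₂ c₀ c₁ c₂
  exact P075.main h₀ h₁ h₂ b₀ b₁ b₂ c₀ c₁ c₂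

end Vale.Agent.Results.P075.DyadicBound
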